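import Vale.Agent.P068.Augment

/-!
# P068: finite defects in the matroid intersection property can always be repaired
-/

open Set
open scoped Matroid
open Vale.Agent.P068

namespace Vale.Agent.Results.P068.FiniteDefect

/-- Let `M`, `N` be matroids (finite or infinite) on the same ground set `E`.
(1) If a common independent set `JM ∪ JN` (disjoint union) covers `E` up to a finite set `F`, i.e.
`cl_M (JM ∪ F) ∪ cl_N (JN ∪ F) = E`, then `(M, N)` satisfies intersection.
(2) If `E \ X` has finite rank in `N` and the restrictions to `X` satisfy intersection, so does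
`(M, N)`.
(3) If `D` has finite rank in `N✶` and the contractions `(M ／ D, N ／ D)` satisfy intersection, so
does `(M, N)`. -/
theorem result {α : Type*} (M N : Matroid α) (hE : M.E = N.E) :
    (∀ JM JN F : Set α, Disjoint JM JN → M.Indep (JM ∪ JN) → N.Indep (JM ∪ JN) → F.Finite →
      M.closure (JM ∪ F) ∪ N.closure (JN ∪ F) = M.E → SatisfiesIntersection M N) ∧
    (∀ X : Set α, X ⊆ M.E → N.IsRkFinite (M.E \ X) →
      SatisfiesIntersection (M ↾ X) (N ↾ X) → SatisfiesIntersection M N) ∧
    (∀ D : Set α, N✶.IsRkFinite D →
      SatisfiesIntersection (M ／ D) (N ／ D) → SatisfiesIntersection M N) :=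
  ⟨fun _ _ _ hdj hM hN hF hcl => satisfiesIntersection_of_finite_defect hE hdj hM hN hF hcl,
    fun _ hX hfin h => satisfiesIntersection_of_restrict hE hX hfin h,
    fun _ hfin h => satisfiesIntersection_of_contract hE hfin h⟩

end Vale.Agent.Results.P068.FiniteDefect
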