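import Vale.Agent.P068.Augment

/-!
# P068: the intersection property for an arbitrary matroid paired with a nearly uniform matroid
-/

open Set
open scoped Matroid
open Vale.Agent.P068

namespace Vale.Agent.Results.P068.NearlyUniform

/-- Let `M`, `N` be matroids (finite or infinite, Mathlib's `Matroid`) on the same ground set.
If `N` becomes uniform after deleting a set `D₁` of finite `N`-rank and then contracting a set `D₂`
of finite rank in the dual `N✶`, then `(M, N)` satisfies intersection.  In particular this holds
whenever `N` has finite rank, and whenever `N` has finite corank. -/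
theorem result {α : Type*} (M N : Matroid α) (hE : M.E = N.E) :
    (∀ D₁ D₂ : Set α, N.IsRkFinite D₁ → N✶.IsRkFinite D₂ → IsUniform (N ＼ D₁ ／ D₂) →
      SatisfiesIntersection M N) ∧
    (N.RankFinite → SatisfiesIntersection M N) ∧
    (N✶.RankFinite → SatisfiesIntersection M N) :=
  ⟨fun _ _ h₁ h₂ hU => satisfiesIntersection_of_nearly_uniform hE h₁ h₂ hU,
    fun _ => satisfiesIntersection_of_rankFinite hE,
    fun _ => satisfiesIntersection_of_dual_rankFinite hE⟩

end Vale.Agent.Results.P068.NearlyUniform
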