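import Vale.Agent.P068.Augment
import Vale.Agent.P068.UniformFamily

/-!
# P068: the results on the intersection and packing/covering conjectures, stated with
Mathlib notions only (no definition of ours occurs in the statement)
-/

open Set
open scoped Matroid
open Vale.Agent.P068

namespace Vale.Agent.Results.P068.PlainCombined

/-- All matroids are Mathlib's `Matroid` (finite or infinite).

(1) Let `M`, `N` have the same ground set.  If `N` becomes uniform (every subset of the ground set
independent or spanning) after deleting a set `D₁` of finite `N`-rank and contracting a set `D₂` of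
finite rank in `N✶`, then `(M, N)` satisfies intersection: there are disjoint `JM`, `JN` with
`JM ∪ JN` independent in `M` and in `N` and `cl_M JM ∪ cl_N JN = E`.
(2) A witness with a finite defect `F` can be repaired.
(3) Every family of matroids on `E` with at most one non-uniform member has a packing/covering
partition `E = P ∪ C`. -/
theorem result {α : Type*} :
    (∀ M N : Matroid α, M.E = N.E → ∀ D₁ D₂ : Set α, N.IsRkFinite D₁ → N✶.IsRkFinite D₂ →
      (∀ X ⊆ (N ＼ D₁ ／ D₂).E, (N ＼ D₁ ／ D₂).Indep X ∨ (N ＼ D₁ ／ D₂).Spanning X) →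
      ∃ JM JN : Set α, Disjoint JM JN ∧ M.Indep (JM ∪ JN) ∧ N.Indep (JM ∪ JN) ∧
        M.closure JM ∪ N.closure JN = M.E) ∧
    (∀ M N : Matroid α, M.E = N.E → ∀ KM KN F : Set α, Disjoint KM KN → M.Indep (KM ∪ KN) →
      N.Indep (KM ∪ KN) → F.Finite → M.closure (KM ∪ F) ∪ N.closure (KN ∪ F) = M.E →
      ∃ JM JN : Set α, Disjoint JM JN ∧ M.Indep (JM ∪ JN) ∧ N.Indep (JM ∪ JN) ∧
        M.closure JM ∪ N.closure JN = M.E) ∧
    (∀ (ι : Type*) (M : ι → Matroid α) (E : Set α), (∀ i, (M i).E = E) →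
      (∀ i j, (¬ ∀ X ⊆ (M i).E, (M i).Indep X ∨ (M i).Spanning X) →
        (¬ ∀ X ⊆ (M j).E, (M j).Indep X ∨ (M j).Spanning X) → i = j) →
      ∃ (P C : Set α) (S I : ι → Set α), P ∪ C = E ∧ Disjoint P C ∧
        (∀ i, S i ⊆ P) ∧ (∀ i, I i ⊆ C) ∧ (∀ i j, i ≠ j → Disjoint (S i) (S j)) ∧
        (∀ i, ((M i) ↾ P).closure (S i) = P) ∧ (∀ i, (((M i)✶ ↾ C)✶).Indep (I i)) ∧
        (⋃ i, I i) = C) :=
  ⟨fun _ _ hE _ _ h₁ h₂ hU => satisfiesIntersection_of_nearly_uniform hE h₁ h₂ hU,
    fun _ _ hE _ _ _ hdj hM hN hF hcl => satisfiesIntersection_of_finite_defect hE hdj hM hN hF hcl,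
    fun _ M E hE hU => hasPackingCovering_of_uniform M E hE hU⟩

end Vale.Agent.Results.P068.PlainCombined
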