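import Vale.Agent.P068.UniformFamily

/-!
# P068: packing/covering for families with at most one non-uniform member
-/

open Set
open scoped Matroid
open Vale.Agent.P068

namespace Vale.Agent.Results.P068.UniformFamily

/-- Every family `(M i)` of matroids on a common ground set `E` (arbitrary index type, arbitrary
`E`) in which at most one member fails to be uniform has a packing/covering partition. -/
theorem result {α ι : Type*} (M : ι → Matroid α) (E : Set α) (hE : ∀ i, (M i).E = E)
    (hU : ∀ i j, ¬ IsUniform (M i) → ¬ IsUniform (M j) → i = j) :
    HasPackingCovering M E :=
  hasPackingCovering_of_uniform M E hE hU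

end Vale.Agent.Results.P068.UniformFamily
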